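import Vale.Agent.P032.Net.H672.Net

/-!
# P032: networks of two-pair centres in which `(1,1)`- and `(2,2)`-centres are allowed a priori

`Net2` is `Net` (H672) without `L2`; instead the arc at a `T`-end of a `(1,1)`-centre leaves the
`C`-end (`away`), and `LP3` (balance at a vertex) holds. Results (no word engine, only signs):

* `Net2.nb_one_one`: every neighbour of a `(2,2)`-centre is a `(1,1)`-centre (the `K4` list);
* `Net2.no_two_two`: there is no `(2,2)`-centre;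
* `Net2.toNet`: without `(1,1)`-centres this is a `Net`;
* `nets358`: if a `(1,1)`-centre of one network is a `(2,2)`-centre of some network, all are `Net`s.
-/

open Complex

set_option linter.dupNamespace false

namespace Vale.Agent.P032.H358

open Vale.Agent.P032.Net.H672

/-- a network with orientations, `(1,1)`- and `(2,2)`-centres allowed -/
structure Net2 (tE cE : ℂ → ℂ → Prop) (o : ℂ → ℂ → ℝ) : Prop where
  dist_t : ∀ {z v}, tE z v → dist v z = 1
  dist_c : ∀ {z q}, cE z q → dist q z = 1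
  ne : ∀ {z z' v}, tE z v → cE z' v → False
  rh : ∀ {z v q}, tE z v → cE z q → tE (v + q - z) v ∧ cE (v + q - z) q
  three_t : ∀ {v z₁ z₂ z₃ z₄}, (tE z₁ v ∧ ∃ q, cE z₁ q) → (tE z₂ v ∧ ∃ q, cE z₂ q) →
    (tE z₃ v ∧ ∃ q, cE z₃ q) → (tE z₄ v ∧ ∃ q, cE z₄ q) →
    z₁ = z₂ ∨ z₁ = z₃ ∨ z₁ = z₄ ∨ z₂ = z₃ ∨ z₂ = z₄ ∨ z₃ = z₄
  three_c : ∀ {q z₁ z₂ z₃ z₄}, (cE z₁ q ∧ ∃ v, tE z₁ v) → (cE z₂ q ∧ ∃ v, tE z₂ v) →
    (cE z₃ q ∧ ∃ v, tE z₃ v) → (cE z₄ q ∧ ∃ v, tE z₄ v) →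
    z₁ = z₂ ∨ z₁ = z₃ ∨ z₁ = z₄ ∨ z₂ = z₃ ∨ z₂ = z₄ ∨ z₃ = z₄
  sep : ∀ {z v₁ v₂ q₁ q₂}, tE z v₁ → tE z v₂ → cE z q₁ → cE z q₂ →
    0 < dt (v₁ - z) (q₁ - z) * dt (v₁ - z) (q₂ - z) * (dt (v₂ - z) (q₁ - z) * dt (v₂ - z) (q₂ - z))
  L3 : ∀ {z v q q'}, tE z v → cE z q → cE z q' → q ≠ q' → (∀ v', tE z v' → v' = v) →
    (∀ p, cE z p → p = q ∨ p = q') →
    ∃ α β γ : ℝ, 0 < α ∧ 0 < β ∧ 0 < γ ∧
      (α : ℂ) * (v - z) + (β : ℂ) * (q - z) + (γ : ℂ) * (q' - z) = 0
  L3' : ∀ {z q v v'}, cE z q → tE z v → tE z v' → v ≠ v' → (∀ q', cE z q' → q' = q) →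
    (∀ p, tE z p → p = v ∨ p = v') →
    ∃ α β γ : ℝ, 0 < α ∧ 0 < β ∧ 0 < γ ∧
      (α : ℂ) * (q - z) + (β : ℂ) * (v - z) + (γ : ℂ) * (v' - z) = 0
  /-- at a `(1,1)`-centre the arc at the `T`-end leaves the `C`-end -/
  away : ∀ {z v q}, tE z v → cE z q → (∀ v', tE z v' → v' = v) → (∀ q', cE z q' → q' = q) →
    0 < o z v * dt (q - z) (z - v)
  /-- the balance at a vertex, only used when `v + q - z` and `c` are `(1,1)` and `z` is `(2,2)` -/
  LP3 : ∀ {z v q c p}, tE z v → cE z q → tE c v → cE c p → c ≠ z → c ≠ v + q - z →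
    ∃ a b : ℝ, 0 ≤ a ∧ 0 ≤ b ∧
      ((o c v : ℝ) : ℂ) * (c - v) + (a : ℂ) * (((o z v : ℝ) : ℂ) * (z - v))
        + (b : ℂ) * (((o (v + q - z) v : ℝ) : ℂ) * (q - z)) = 0

/-- the part which is symmetric in the two types -/
structure NetB (tE cE : ℂ → ℂ → Prop) : Prop where
  dist_t : ∀ {z v}, tE z v → dist v z = 1
  dist_c : ∀ {z q}, cE z q → dist q z = 1
  ne : ∀ {z z' v}, tE z v → cE z' v → False
  rh : ∀ {z v q}, tE z v → cE z q → tE (v + q - z) v ∧ cE (v + q - z) q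
  three_t : ∀ {v z₁ z₂ z₃ z₄}, (tE z₁ v ∧ ∃ q, cE z₁ q) → (tE z₂ v ∧ ∃ q, cE z₂ q) →
    (tE z₃ v ∧ ∃ q, cE z₃ q) → (tE z₄ v ∧ ∃ q, cE z₄ q) →
    z₁ = z₂ ∨ z₁ = z₃ ∨ z₁ = z₄ ∨ z₂ = z₃ ∨ z₂ = z₄ ∨ z₃ = z₄
  three_c : ∀ {q z₁ z₂ z₃ z₄}, (cE z₁ q ∧ ∃ v, tE z₁ v) → (cE z₂ q ∧ ∃ v, tE z₂ v) →
    (cE z₃ q ∧ ∃ v, tE z₃ v) → (cE z₄ q ∧ ∃ v, tE z₄ v) →
    z₁ = z₂ ∨ z₁ = z₃ ∨ z₁ = z₄ ∨ z₂ = z₃ ∨ z₂ = z₄ ∨ z₃ = z₄
  sep : ∀ {z v₁ v₂ q₁ q₂}, tE z v₁ → tE z v₂ → cE z q₁ → cE z q₂ →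
    0 < dt (v₁ - z) (q₁ - z) * dt (v₁ - z) (q₂ - z) * (dt (v₂ - z) (q₁ - z) * dt (v₂ - z) (q₂ - z))
  L3 : ∀ {z v q q'}, tE z v → cE z q → cE z q' → q ≠ q' → (∀ v', tE z v' → v' = v) →
    (∀ p, cE z p → p = q ∨ p = q') →
    ∃ α β γ : ℝ, 0 < α ∧ 0 < β ∧ 0 < γ ∧
      (α : ℂ) * (v - z) + (β : ℂ) * (q - z) + (γ : ℂ) * (q' - z) = 0
  L3' : ∀ {z q v v'}, cE z q → tE z v → tE z v' → v ≠ v' → (∀ q', cE z q' → q' = q) →
    (∀ p, tE z p → p = v ∨ p = v') →
    ∃ α β γ : ℝ, 0 < α ∧ 0 < β ∧ 0 < γ ∧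
      (α : ℂ) * (q - z) + (β : ℂ) * (v - z) + (γ : ℂ) * (v' - z) = 0

variable {tE cE : ℂ → ℂ → Prop} {o : ℂ → ℂ → ℝ}

theorem Net2.toB (N : Net2 tE cE o) : NetB tE cE where
  dist_t := N.dist_t
  dist_c := N.dist_c
  ne := N.ne
  rh := N.rh
  three_t := N.three_t
  three_c := N.three_c
  sep := N.sep
  L3 := N.L3
  L3' := N.L3'

/-- exchange of the two types -/
theorem NetB.swap (N : NetB tE cE) : NetB cE tE where
  dist_t := N.dist_c
  dist_c := N.dist_t
  ne := fun h1 h2 => N.ne h2 h1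
  rh := fun {z v q} h1 h2 => by
    have := N.rh h2 h1
    rw [show q + v - z = v + q - z by ring] at this
    exact ⟨this.2, this.1⟩
  three_t := N.three_c
  three_c := N.three_t
  sep := fun {z v₁ v₂ q₁ q₂} h1 h2 h3 h4 => by
    have := N.sep h3 h4 h1 h2
    rw [dt_comm (q₁ - z) (v₁ - z), dt_comm (q₂ - z) (v₁ - z), dt_comm (q₁ - z) (v₂ - z),
      dt_comm (q₂ - z) (v₂ - z)]
    refine this.trans_le (le_of_eq ?_)
    ring
  L3 := N.L3'
  L3' := N.L3

theorem NetB.dt_ne (N : NetB tE cE) {z v q : ℂ} (hv : tE z v) (hq : cE z q) :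
    dt (v - z) (q - z) ≠ 0 := by
  intro h
  have := N.sep hv hv hq hq
  rw [h] at this
  simp at this

/-- the ends of the two types are never antipodal -/
theorem NetB.ne_z (N : NetB tE cE) {z v q : ℂ} (hv : tE z v) (hq : cE z q) : v + q - z ≠ z := by
  intro h
  apply N.dt_ne hv hq
  have : q - z = -(v - z) := by linear_combination h
  rw [this, dt_neg_right, dt_self, neg_zero]

/-- a second `C`-end of the neighbour `v + q - z` of a centre `z` with a further `C`-end -/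
theorem NetB.third_c (N : NetB tE cE) {z v q q' p : ℂ} (hv : tE z v) (hq : cE z q)
    (hq' : cE z q') (hqq : q ≠ q') (hp : cE (v + q - z) p) :
    p = q ∨ p = v + q + q' - 2 * z := by
  have w1 := N.rh hv hq
  have w2 := N.rh hv hq'
  have r := N.rh w1.1 hp
  rcases N.three_t ⟨hv, q, hq⟩ ⟨w1.1, q, w1.2⟩ ⟨w2.1, q', w2.2⟩ ⟨r.1, p, r.2⟩ with
    h | h | h | h | h | h
  · exact absurd h.symm (N.ne_z hv hq)
  · exact absurd h.symm (N.ne_z hv hq')
  · left; linear_combination -h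
  · exact absurd (by linear_combination h) hqq
  · exact absurd h.symm (N.ne_z w1.1 hp)
  · right; linear_combination -h

/-- at most two ends of the second type if there is one of the first type -/
theorem NetB.card_c (N : NetB tE cE) {z v q₁ q₂ q₃ : ℂ} (hv : tE z v) (h1 : cE z q₁)
    (h2 : cE z q₂) (h3 : cE z q₃) : q₁ = q₂ ∨ q₁ = q₃ ∨ q₂ = q₃ := by
  have key : ∀ {q}, cE z q → tE (v + q - z) v ∧ ∃ p, cE (v + q - z) p := fun {q} hq =>
    ⟨(N.rh hv hq).1, q, (N.rh hv hq).2⟩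
  rcases N.three_t ⟨hv, q₁, h1⟩ (key h1) (key h2) (key h3) with h | h | h | h | h | h
  · exact absurd h.symm (N.ne_z hv h1)
  · exact absurd h.symm (N.ne_z hv h2)
  · exact absurd h.symm (N.ne_z hv h3)
  · left; linear_combination h
  · right; left; linear_combination h
  · right; right; linear_combination h

theorem NetB.card_t (N : NetB tE cE) {z q v₁ v₂ v₃ : ℂ} (hq : cE z q) (h1 : tE z v₁)
    (h2 : tE z v₂) (h3 : tE z v₃) : v₁ = v₂ ∨ v₁ = v₃ ∨ v₂ = v₃ :=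
  N.swap.card_c hq h1 h2 h3

/-- `L3` without the cardinality premise -/
theorem NetB.L3s (N : NetB tE cE) {z v q q' : ℂ} (hv : tE z v) (hq : cE z q) (hq' : cE z q')
    (hqq : q ≠ q') (o1 : ∀ v', tE z v' → v' = v) : ∃ α β γ : ℝ, 0 < α ∧ 0 < β ∧ 0 < γ ∧
      (α : ℂ) * (v - z) + (β : ℂ) * (q - z) + (γ : ℂ) * (q' - z) = 0 :=
  N.L3 hv hq hq' hqq o1 fun p hp => by
    rcases N.card_c hv hp hq hq' with h | h | h
    · exact Or.inl h
    · exact Or.inr h
    · exact absurd h hqq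

/-- two of the three centres at `v` cannot both have a single `T`-end -/
theorem NetB.aux_one (N : NetB tE cE) {v c₁ c₂ c₃ : ℂ} (t1 : tE c₁ v) (t2 : tE c₂ v)
    (h13 : c₁ ≠ c₃) (h23 : c₂ ≠ c₃)
    (a12 : cE c₁ (c₁ + c₂ - v)) (b12 : cE c₂ (c₁ + c₂ - v))
    (a13 : cE c₁ (c₁ + c₃ - v)) (b23 : cE c₂ (c₂ + c₃ - v))
    (o1 : ∀ v', tE c₁ v' → v' = v) (o2 : ∀ v', tE c₂ v' → v' = v) : False := by
  have n1 : c₁ + c₂ - v ≠ c₁ + c₃ - v := fun h => h23 (by linear_combination h)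
  have n2 : c₁ + c₂ - v ≠ c₂ + c₃ - v := fun h => h13 (by linear_combination h)
  obtain ⟨α, β, γ, hα, hβ, hγ, h1⟩ := N.L3s t1 a12 a13 n1 o1
  obtain ⟨α', β', γ', hα', hβ', hγ', h2⟩ := N.L3s t2 b12 b23 n2 o2
  -- pair with `u₁ = c₁ - v`
  have e1 := dt_lin (c₁ - v) h1
  have e2 := dt_lin (c₁ - v) h2
  rw [show v - c₁ = -(c₁ - v) by ring, show c₁ + c₂ - v - c₁ = c₂ - v by ring,
    show c₁ + c₃ - v - c₁ = c₃ - v by ring, dt_neg_right, dt_self] at e1
  rw [show v - c₂ = -(c₂ - v) by ring, show c₁ + c₂ - v - c₂ = c₁ - v by ring,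
    show c₂ + c₃ - v - c₂ = c₃ - v by ring, dt_neg_right, dt_self] at e2
  have e3 := N.dt_ne t1 a12
  rw [show v - c₁ = -(c₁ - v) by ring, show c₁ + c₂ - v - c₁ = c₂ - v by ring,
    dt_neg_left] at e3
  apply e3
  have h3 : (β * γ' + α' * γ) * dt (c₁ - v) (c₂ - v) = 0 := by
    linear_combination γ' * e1 - γ * e2
  rcases mul_eq_zero.1 h3 with h | h
  · exact absurd h (by positivity)
  · rw [h, neg_zero]

/-- the `(2,2)`-neighbour of a `(2,2)`-centre: impossible. Coordinates: `z = z₁₂`,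
`v = v₁`, `v' = v₂`, `q = q₁₂₃`, `q' = q₁₂₄`; the neighbour is `z₁₃`, with `v₃` and `q₁₃₄`. -/
theorem NetB.no_two_nb (N : NetB tE cE) {z v v' q q' : ℂ} (hv : tE z v) (hv' : tE z v')
    (hq : cE z q) (hq' : cE z q') (hvv : v ≠ v') (hqq : q ≠ q')
    (ht : tE (v + q - z) (v + v' + q - 2 * z)) (hc : cE (v + q - z) (v + q + q' - 2 * z)) :
    False := by
  -- directions `a = u₁`, `b = u₂`, `c = u₃`, `d = u₄`
  obtain ⟨a, ha⟩ : ∃ a, a = z - v' := ⟨_, rfl⟩
  obtain ⟨b, hb⟩ : ∃ b, b = z - v := ⟨_, rfl⟩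
  obtain ⟨c, hc'⟩ : ∃ c, c = q - z := ⟨_, rfl⟩
  obtain ⟨d, hd⟩ : ∃ d, d = q' - z := ⟨_, rfl⟩
  -- separation at `z₁₂` and `z₁₃`
  have w13 := N.rh hv hq
  have s12 := N.sep hv hv' hq hq'
  have s13 := N.sep w13.1 ht w13.2 hc
  rw [show v - z = -b by rw [hb]; ring, show v' - z = -a by rw [ha]; ring, ← hc', ← hd] at s12
  rw [show v - (v + q - z) = -c by rw [hc']; ring,
    show v + v' + q - 2 * z - (v + q - z) = -a by rw [ha]; ring,
    show q - (v + q - z) = b by rw [hb]; ring,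
    show v + q + q' - 2 * z - (v + q - z) = d by rw [hd]; ring] at s13
  simp only [dt_neg_left] at s12 s13
  -- `z₁₄` sees `v₁`, `q₁₂₄`, `q₁₃₄`
  have w14 := N.rh hv hq'
  have r14 := N.rh w13.1 hc
  rw [show v + (v + q + q' - 2 * z) - (v + q - z) = v + q' - z by ring] at r14
  have n14 : q' ≠ v + q + q' - 2 * z := by
    intro h
    exact N.ne_z hv hq (by linear_combination -h)
  -- `z₂₃` sees `q₁₂₃`, `v₂`, `v₃`
  have w23 := N.rh hv' hq
  have r23 := N.rh ht w13.2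
  rw [show v + v' + q - 2 * z + q - (v + q - z) = v' + q - z by ring] at r23
  have n23 : v' ≠ v + v' + q - 2 * z := by
    intro h
    exact N.ne_z hv hq (by linear_combination -h)
  have hbc : dt b c ≠ 0 := by
    intro h0
    rw [h0] at s12
    simp at s12
  -- the product of the third pairing is negative
  have hneg : dt a b * dt a c * (dt b d * dt c d) < 0 := by
    rw [dt_comm b c] at s13
    by_contra hcon
    push Not at hcon
    have h1 := mul_pos s12 s13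
    have h2 : 0 ≤ (dt b c * dt a d) ^ 2 * (dt a b * dt a c * (dt b d * dt c d)) :=
      mul_nonneg (sq_nonneg _) hcon
    nlinarith [h1, h2]
  -- `z₁₄` has only `v₁`
  have o14 : ∀ p, tE (v + q' - z) p → p = v := by
    intro p hp
    by_contra hne
    have h3 : p = v ∨ p = q' + v + v' - 2 * z :=
      N.swap.third_c hq' hv hv' hvv (by rw [show q' + v - z = v + q' - z by ring]; exact hp)
    rcases h3 with h3 | h3
    · exact hne h3
    have s14 := N.sep w14.1 hp w14.2 r14.2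
    rw [show v - (v + q' - z) = -d by rw [hd]; ring,
      show p - (v + q' - z) = -a by rw [ha, h3]; ring,
      show q' - (v + q' - z) = b by rw [hb]; ring,
      show v + q + q' - 2 * z - (v + q' - z) = c by rw [hc']; ring] at s14
    simp only [dt_neg_left] at s14
    rw [dt_comm b d, dt_comm c d] at s14
    linarith
  have o23 : ∀ p, cE (v' + q - z) p → p = q := by
    intro p hp
    by_contra hne
    rcases N.third_c hv' hq hq' hqq hp with h3 | h3
    · exact hne h3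
    have s23 := N.sep w23.1 r23.1 w23.2 hp
    rw [show v' - (v' + q - z) = -c by rw [hc']; ring,
      show v + v' + q - 2 * z - (v' + q - z) = -b by rw [hb]; ring,
      show q - (v' + q - z) = a by rw [ha]; ring,
      show p - (v' + q - z) = d by rw [hd, h3]; ring] at s23
    simp only [dt_neg_left] at s23
    rw [dt_comm a c, dt_comm a b] at s23
    linarith
  obtain ⟨α, β, γ, hα, hβ, hγ, h1⟩ := N.L3s w14.1 w14.2 r14.2 n14 o14
  obtain ⟨α', β', γ', hα', hβ', hγ', h2⟩ := N.swap.L3s w23.2 w23.1 r23.1 n23 o23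
  rw [show v - (v + q' - z) = -d by rw [hd]; ring,
    show q' - (v + q' - z) = b by rw [hb]; ring,
    show v + q + q' - 2 * z - (v + q' - z) = c by rw [hc']; ring] at h1
  rw [show q - (v' + q - z) = a by rw [ha]; ring,
    show v' - (v' + q - z) = -c by rw [hc']; ring,
    show v + v' + q - 2 * z - (v' + q - z) = -b by rw [hb]; ring] at h2
  have e1 := dt_lin b h1
  have e2 := dt_lin c h1
  have e3 := dt_lin b h2
  have e4 := dt_lin c h2
  simp only [dt_neg_right, dt_self] at e1 e2 e3 e4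
  rw [dt_comm b c] at e2 e4
  rw [dt_comm a b] at e3
  rw [dt_comm a c] at e4
  have k1 : α * dt b d = γ * dt b c := by linarith
  have k2 : α * dt c d = -(β * dt b c) := by linarith
  have k3 : α' * dt a b = -(β' * dt b c) := by linarith
  have k4 : α' * dt a c = γ' * dt b c := by linarith
  have hbc2 : 0 < dt b c ^ 2 := by positivity
  have h5 : α ^ 2 * α' ^ 2 * (dt a b * dt a c * (dt b d * dt c d))
      = (β * γ * β' * γ') * (dt b c ^ 2) ^ 2 := by
    calc α ^ 2 * α' ^ 2 * (dt a b * dt a c * (dt b d * dt c d))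
        = (α' * dt a b) * (α' * dt a c) * ((α * dt b d) * (α * dt c d)) := by ring
      _ = _ := by rw [k1, k2, k3, k4]; ring
  have h6 : 0 < (β * γ * β' * γ') * (dt b c ^ 2) ^ 2 := by positivity
  have h7 : α ^ 2 * α' ^ 2 * (dt a b * dt a c * (dt b d * dt c d)) < 0 :=
    mul_neg_of_pos_of_neg (by positivity) hneg
  linarith

/-- the neighbour `v + q - z` of a `(2,2)`-centre `z` has no second `C`-end -/
theorem NetB.nb_c (N : NetB tE cE) {z v v' q q' : ℂ} (hv : tE z v) (hv' : tE z v')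
    (hq : cE z q) (hq' : cE z q') (hvv : v ≠ v') (hqq : q ≠ q') :
    ∀ p, cE (v + q - z) p → p = q := by
  intro p hp
  by_contra hne
  rcases N.third_c hv hq hq' hqq hp with h3 | h3
  · exact hne h3
  rw [h3] at hp hne
  have w13 := N.rh hv hq
  have w14 := N.rh hv hq'
  have r14 := N.rh w13.1 hp
  rw [show v + (v + q + q' - 2 * z) - (v + q - z) = v + q' - z by ring] at r14
  -- the second `T`-ends of `z₁₃`, `z₁₄`
  by_cases o13 : ∀ p, tE (v + q - z) p → p = v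
  · by_cases o14 : ∀ p, tE (v + q' - z) p → p = v
    · refine N.aux_one (c₃ := z) w13.1 w14.1 (N.ne_z hv hq) (N.ne_z hv hq') ?_ ?_ ?_ ?_ o13 o14
      · rw [show v + q - z + (v + q' - z) - v = v + q + q' - 2 * z by ring]; exact hp
      · rw [show v + q - z + (v + q' - z) - v = v + q + q' - 2 * z by ring]; exact r14.2
      · rw [show v + q - z + z - v = q by ring]; exact w13.2
      · rw [show v + q' - z + z - v = q' by ring]; exact w14.2
    · push Not at o14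
      obtain ⟨r, hr, hrv⟩ := o14
      rcases N.swap.third_c hq' hv hv' hvv
        (by rw [show q' + v - z = v + q' - z by ring]; exact hr) with h4 | h4
      · exact hrv h4
      refine N.no_two_nb hv hv' hq' hq hvv hqq.symm ?_ ?_
      · rw [show v + v' + q' - 2 * z = q' + v + v' - 2 * z by ring, ← h4]; exact hr
      · rw [show v + q' + q - 2 * z = v + q + q' - 2 * z by ring]; exact r14.2
  · push Not at o13
    obtain ⟨r, hr, hrv⟩ := o13
    rcases N.swap.third_c hq hv hv' hvv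
      (by rw [show q + v - z = v + q - z by ring]; exact hr) with h4 | h4
    · exact hrv h4
    refine N.no_two_nb hv hv' hq hq' hvv hqq ?_ hp
    rw [show v + v' + q - 2 * z = q + v + v' - 2 * z by ring, ← h4]; exact hr

/-- **The `K4` list.** Every neighbour of a `(2,2)`-centre is a `(1,1)`-centre. -/
theorem NetB.nb_one_one (N : NetB tE cE) {z v v' q q' : ℂ} (hv : tE z v) (hv' : tE z v')
    (hq : cE z q) (hq' : cE z q') (hvv : v ≠ v') (hqq : q ≠ q') :
    (∀ p, tE (v + q - z) p → p = v) ∧ ∀ p, cE (v + q - z) p → p = q := by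
  refine ⟨fun p hp => ?_, N.nb_c hv hv' hq hq' hvv hqq⟩
  exact N.swap.nb_c hq hq' hv hv' hqq hvv p (by rw [show q + v - z = v + q - z by ring]; exact hp)

/-- **No `(2,2)`-centre**, by the balance at one vertex. -/
theorem Net2.no_two_two (N : Net2 tE cE o) {z v v' q q' : ℂ} (hv : tE z v) (hv' : tE z v')
    (hq : cE z q) (hq' : cE z q') (hvv : v ≠ v') (hqq : q ≠ q') : False := by
  have B := N.toB
  obtain ⟨t1, c1⟩ := B.nb_one_one hv hv' hq hq' hvv hqq
  obtain ⟨t2, c2⟩ := B.nb_one_one hv hv' hq' hq hvv hqq.symm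
  have w1 := N.rh hv hq
  have w2 := N.rh hv hq'
  have a1 := N.away w1.1 w1.2 t1 c1
  have a2 := N.away w2.1 w2.2 t2 c2
  obtain ⟨x, y, hx, hy, h⟩ := N.LP3 hv hq w2.1 w2.2 (B.ne_z hv hq')
    (fun h => hqq (by linear_combination -h))
  rw [show q - (v + q - z) = z - v by ring, show v + q - z - v = q - z by ring] at a1
  rw [show q' - (v + q' - z) = z - v by ring, show v + q' - z - v = q' - z by ring] at a2
  rw [show v + q' - z - v = q' - z by ring] at h
  have h1 : ((o (v + q' - z) v : ℝ) : ℂ) * (q' - z)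
      + ((x * o z v : ℝ) : ℂ) * (z - v) + ((y * o (v + q - z) v : ℝ) : ℂ) * (q - z) = 0 := by
    rw [← h]; push_cast; ring
  have e := dt_lin (z - v) h1
  rw [dt_self] at e
  have : 0 ≤ y * (o (v + q - z) v * dt (z - v) (q - z)) := mul_nonneg hy a1.le
  linarith

/-- without `(1,1)`-centres a `Net2` is a `Net` -/
theorem Net2.toNet (N : Net2 tE cE o)
    (h11 : ∀ {z v q}, tE z v → cE z q → (∀ v', tE z v' → v' = v) →
      (∀ q', cE z q' → q' = q) → False) : Net tE cE where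
  dist_t := N.dist_t
  dist_c := N.dist_c
  ne := N.ne
  rh := N.rh
  three_t := N.three_t
  three_c := N.three_c
  sep := N.sep
  L2 := fun {z v q} hv hq => by
    by_contra hcon
    push Not at hcon
    exact h11 hv hq (fun v' hv' => by_contra fun h => hcon.1 v' h hv')
      (fun q' hq' => by_contra fun h => hcon.2 q' h hq')
  L3 := N.L3
  L3' := N.L3'

/-- a family of networks on the same centres: if every `(1,1)`-centre of one of them is a
`(2,2)`-centre of some other one, then all of them satisfy `L2` -/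
theorem nets358 {ι : Type*} {tE cE : ι → ℂ → ℂ → Prop} {o : ℂ → ℂ → ℝ}
    (N : ∀ i, Net2 (tE i) (cE i) o)
    (h11 : ∀ {i z v q}, tE i z v → cE i z q → (∀ v', tE i z v' → v' = v) →
      (∀ q', cE i z q' → q' = q) →
      ∃ j v₁ v₂ q₁ q₂, tE j z v₁ ∧ tE j z v₂ ∧ cE j z q₁ ∧ cE j z q₂ ∧ v₁ ≠ v₂ ∧ q₁ ≠ q₂) :
    ∀ i, Net (tE i) (cE i) := fun i => (N i).toNet fun hv hq h1 h2 => by
  obtain ⟨j, v₁, v₂, q₁, q₂, a1, a2, b1, b2, h3, h4⟩ := h11 hv hq h1 h2
  exact (N j).no_two_two a1 a2 b1 b2 h3 h4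

end Vale.Agent.P032.H358
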